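import Vale.Agent.H90.KTV.Abs

/-!
An abstract inequality for two pairs of nested averaging operators and an involution
(the operator part of the comparison of two disjoint vertex pairs).
-/

namespace Vale.Agent.H75

open Vale.Agent.H90 Finset

set_option linter.unusedSectionVars false
set_option linter.unusedVariables false

section PairLemma

variable {Ω : Type*} [Fintype Ω] [DecidableEq Ω]

/-- Two commuting self-adjoint idempotents have a nonnegative mixed form. -/
theorem dot_proj_comm_nonneg (A B : (Ω → ℝ) → (Ω → ℝ))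
    (hAs : ∀ f g, dot f (A g) = dot (A f) g) (hAi : ∀ f, A (A f) = A f)
    (hBs : ∀ f g, dot f (B g) = dot (B f) g) (hBi : ∀ f, B (B f) = B f)
    (hc : ∀ f, A (B f) = B (A f)) (g : Ω → ℝ) : 0 ≤ dot (A g) (B g) := by
  have e : dot (A g) (B g) = dot (B (A g)) (B (A g)) := by
    calc dot (A g) (B g) = dot (A (A g)) (B g) := by rw [hAi]
      _ = dot (A g) (A (B g)) := by rw [hAs]
      _ = dot (A g) (B (A g)) := by rw [hc]
      _ = dot (A g) (B (B (A g))) := by rw [hBi]
      _ = dot (B (A g)) (B (A g)) := by rw [hBs]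
  rw [e]
  exact dot_self_nonneg _

variable {r r' : Ω → Ω → Prop} [DecidableRel r] [DecidableRel r']

/-- Tower property, coarse after fine. -/
theorem avgRel_tower_left (h : Equivalence r) (h' : Equivalence r')
    (hsub : ∀ x y, r' x y → r x y) (f : Ω → ℝ) :
    avgRel r' (avgRel r f) = avgRel r f :=
  avgRel_eq_self h' _ (fun x y hxy => avgRel_of_rel h f (hsub x y hxy))

/-- Tower property, fine after coarse. -/
theorem avgRel_tower_right (h : Equivalence r) (h' : Equivalence r')
    (hsub : ∀ x y, r' x y → r x y) (f : Ω → ℝ) :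
    avgRel r (avgRel r' f) = avgRel r f := by
  apply eq_of_dot_eq
  intro g
  calc dot g (avgRel r (avgRel r' f)) = dot (avgRel r g) (avgRel r' f) := by rw [avgRel_dot h]
    _ = dot (avgRel r' (avgRel r g)) f := by rw [avgRel_dot h']
    _ = dot (avgRel r g) f := by rw [avgRel_tower_left h h' hsub]
    _ = dot g (avgRel r f) := by rw [avgRel_dot h]

/-- If the two classes of `x` coincide, so do the two averages at `x`. -/
theorem avgRel_eq_of_class (hsub : ∀ x y, r' x y → r x y) (f : Ω → ℝ) (x : Ω)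
    (hx : ∀ y, r x y → r' x y) : avgRel r' f x = avgRel r f x := by
  unfold avgRel
  have : univ.filter (fun y => r' x y) = univ.filter (fun y => r x y) := by
    ext y
    simp only [mem_filter, mem_univ, true_and]
    exact ⟨hsub x y, hx y⟩
  rw [this]

/-- An involution inside the classes does not change the average. -/
theorem avgRel_comp_invol (h : Equivalence r) (T : Ω → Ω) (hT : ∀ x, T (T x) = x)
    (hrT : ∀ x, r x (T x)) (f : Ω → ℝ) : avgRel r (fun x => f (T x)) = avgRel r f := by
  funext x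
  unfold avgRel
  congr 1
  refine Finset.sum_nbij' T T ?_ ?_ ?_ ?_ ?_
  · intro y hy
    simp only [mem_filter, mem_univ, true_and] at hy ⊢
    exact h.trans hy (hrT y)
  · intro y hy
    simp only [mem_filter, mem_univ, true_and] at hy ⊢
    exact h.trans hy (hrT y)
  · intro y _; exact hT y
  · intro y _; exact hT y
  · intro y _; rfl

/-- `I - P`. -/
noncomputable def Qop (r : Ω → Ω → Prop) [DecidableRel r] (f : Ω → ℝ) : Ω → ℝ := f - avgRel r f

/-- `P' - P`. -/
noncomputable def Rop (r' r : Ω → Ω → Prop) [DecidableRel r'] [DecidableRel r] (f : Ω → ℝ) : Ω → ℝ :=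
  avgRel r' f - avgRel r f

theorem Qop_sa (h : Equivalence r) (f g : Ω → ℝ) : dot f (Qop r g) = dot (Qop r f) g := by
  unfold Qop
  rw [dot_sub_right, dot_sub_left, avgRel_dot h]

theorem Qop_idem (h : Equivalence r) (f : Ω → ℝ) : Qop r (Qop r f) = Qop r f := by
  unfold Qop
  rw [avgRel_sub, avgRel_idem h]
  simp

theorem Rop_sa (h : Equivalence r) (h' : Equivalence r') (f g : Ω → ℝ) :
    dot f (Rop r' r g) = dot (Rop r' r f) g := by
  unfold Rop
  rw [dot_sub_right, dot_sub_left, avgRel_dot h, avgRel_dot h']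

theorem Rop_idem (h : Equivalence r) (h' : Equivalence r')
    (hsub : ∀ x y, r' x y → r x y) (f : Ω → ℝ) : Rop r' r (Rop r' r f) = Rop r' r f := by
  unfold Rop
  rw [avgRel_sub, avgRel_sub, avgRel_idem h', avgRel_idem h, avgRel_tower_left h h' hsub,
    avgRel_tower_right h h' hsub]
  simp

variable (rp rp' rq rq' : Ω → Ω → Prop) [DecidableRel rp] [DecidableRel rp']
  [DecidableRel rq] [DecidableRel rq']

/-- The abstract pair inequality. -/
theorem pair_lemma (hp : Equivalence rp) (hp' : Equivalence rp') (hq : Equivalence rq)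
    (hq' : Equivalence rq')
    (hsubp : ∀ x y, rp' x y → rp x y) (hsubq : ∀ x y, rq' x y → rq x y)
    (c1 : ∀ f : Ω → ℝ, avgRel rp' (avgRel rq f) = avgRel rq (avgRel rp' f))
    (c2 : ∀ f : Ω → ℝ, avgRel rq' (avgRel rp f) = avgRel rp (avgRel rq' f))
    (c3 : ∀ f : Ω → ℝ, avgRel rp' (avgRel rq' f) = avgRel rq' (avgRel rp' f))
    (T : Ω → Ω) (hT : ∀ x, T (T x) = x)
    (hTp : ∀ x, rp x (T x)) (hTq : ∀ x, rq x (T x))
    (hfr : ∀ x, T x = x → (∀ y, rp x y → rp' x y) ∨ (∀ y, rq x y → rq' x y))
    (f : Ω → ℝ) :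
    2 * (∑ x, ((f x - f (T x)) / 2) ^ 2)
        - ∑ x, (if T x ≠ x then
            (avgRel rp' (fun y => (f y + f (T y)) / 2) x
              - avgRel rp (fun y => (f y + f (T y)) / 2) x) ^ 2
            + (avgRel rq' (fun y => (f y + f (T y)) / 2) x
              - avgRel rq (fun y => (f y + f (T y)) / 2) x) ^ 2 else 0)
      ≤ 2 * ∑ x, (f x - avgRel rp f x) * (f x - avgRel rq f x) := by
  set g : Ω → ℝ := fun y => (f y + f (T y)) / 2 with hg
  set θ : Ω → ℝ := fun y => (f y - f (T y)) / 2 with hθ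
  -- averages of `g`
  have hPg : ∀ (r : Ω → Ω → Prop) [DecidableRel r], Equivalence r → (∀ x, r x (T x)) →
      avgRel r g = avgRel r f := by
    intro r _ hr hrT
    have e1 : g = (1 / 2 : ℝ) • (f + fun x => f (T x)) := by
      funext y; simp [hg]; ring
    rw [e1, avgRel_smul, avgRel_add, avgRel_comp_invol hr T hT hrT]
    funext y
    simp
    ring
  have hPgp := hPg rp hp hTp
  have hPgq := hPg rq hq hTq
  -- symmetry facts
  have hgT : ∀ x, g (T x) = g x := by
    intro x; simp only [hg, hT]; ring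
  have hθT : ∀ x, θ (T x) = - θ x := by
    intro x; simp only [hθ, hT]; ring
  have hsymP : ∀ (r : Ω → Ω → Prop) [DecidableRel r], Equivalence r → (∀ x, r x (T x)) →
      ∀ x, Qop r g (T x) = Qop r g x := by
    intro r _ hr hrT x
    simp only [Qop, Pi.sub_apply]
    rw [hgT, avgRel_of_rel hr g (hrT x)]
  -- antisymmetric against symmetric sums to zero
  have hanti : ∀ a : Ω → ℝ, (∀ x, a (T x) = a x) → ∑ x, θ x * a x = 0 := by
    intro a ha
    have e : ∑ x, θ x * a x = ∑ x, θ (T x) * a (T x) := by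
      refine Finset.sum_nbij' T T ?_ ?_ ?_ ?_ ?_
      · intro y _; exact mem_univ _
      · intro y _; exact mem_univ _
      · intro y _; exact hT y
      · intro y _; exact hT y
      · intro y _; rw [hT]
    have e2 : ∑ x, θ (T x) * a (T x) = - ∑ x, θ x * a x := by
      rw [← Finset.sum_neg_distrib]
      refine Finset.sum_congr rfl (fun x _ => ?_)
      rw [hθT, ha]; ring
    linarith
  -- Step 0
  have hQf : ∀ (r : Ω → Ω → Prop) [DecidableRel r], avgRel r g = avgRel r f →
      ∀ x, f x - avgRel r f x = Qop r g x + θ x := by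
    intro r _ hr x
    have e := congrFun hr x
    simp only [Qop, Pi.sub_apply]
    rw [e]
    simp only [hg, hθ]
    ring
  have step0 : ∑ x, (f x - avgRel rp f x) * (f x - avgRel rq f x)
      = dot (Qop rp g) (Qop rq g) + ∑ x, θ x ^ 2 := by
    have e1 : ∑ x, (f x - avgRel rp f x) * (f x - avgRel rq f x)
        = ∑ x, (Qop rp g x * Qop rq g x + θ x * Qop rq g x + θ x * Qop rp g x + θ x ^ 2) := by
      refine Finset.sum_congr rfl (fun x _ => ?_)
      rw [hQf rp hPgp x, hQf rq hPgq x]; ring
    rw [e1, Finset.sum_add_distrib, Finset.sum_add_distrib, Finset.sum_add_distrib,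
      hanti _ (hsymP rq hq hTq), hanti _ (hsymP rp hp hTp)]
    unfold dot
    ring
  -- Step 1
  have dec_p : Qop rp g = Qop rp' g + Rop rp' rp g := by
    funext x; simp [Qop, Rop]
  have dec_q : Qop rq g = Qop rq' g + Rop rq' rq g := by
    funext x; simp [Qop, Rop]
  have n1 : 0 ≤ dot (Qop rp' g) (Qop rq g) := by
    refine dot_proj_comm_nonneg (Qop rp') (Qop rq) (Qop_sa hp') (Qop_idem hp') (Qop_sa hq)
      (Qop_idem hq) ?_ g
    intro f'
    funext x
    simp only [Qop, Pi.sub_apply, avgRel_sub]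
    rw [c1 f']
    ring
  have n2 : 0 ≤ dot (Rop rp' rp g) (Qop rq' g) := by
    refine dot_proj_comm_nonneg (Rop rp' rp) (Qop rq') (Rop_sa hp hp') (Rop_idem hp hp' hsubp)
      (Qop_sa hq') (Qop_idem hq') ?_ g
    intro f'
    funext x
    simp only [Qop, Rop, Pi.sub_apply, avgRel_sub]
    rw [c2 f', c3 f']
    ring
  have step1 : dot (Rop rp' rp g) (Rop rq' rq g) ≤ dot (Qop rp g) (Qop rq g) := by
    have e : dot (Qop rp g) (Qop rq g)
        = dot (Qop rp' g) (Qop rq g) + dot (Rop rp' rp g) (Qop rq' g)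
          + dot (Rop rp' rp g) (Rop rq' rq g) := by
      have e1 : dot (Qop rp g) (Qop rq g)
          = dot (Qop rp' g) (Qop rq g) + dot (Rop rp' rp g) (Qop rq g) := by
        conv_lhs => rw [dec_p]
        rw [dot_add_left]
      have e2 : dot (Rop rp' rp g) (Qop rq g)
          = dot (Rop rp' rp g) (Qop rq' g) + dot (Rop rp' rp g) (Rop rq' rq g) := by
        conv_lhs => rw [dec_q]
        rw [dot_add_right]
      rw [e1, e2]
      ring
    linarith
  -- Step 2
  have step2 : - (1 / 2 : ℝ) * ∑ x, (if T x ≠ x then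
      (avgRel rp' g x - avgRel rp g x) ^ 2 + (avgRel rq' g x - avgRel rq g x) ^ 2 else 0)
      ≤ dot (Rop rp' rp g) (Rop rq' rq g) := by
    unfold dot
    rw [Finset.mul_sum]
    refine Finset.sum_le_sum (fun x _ => ?_)
    simp only [Rop, Pi.sub_apply]
    by_cases hx : T x = x
    · simp only [hx, ne_eq, not_true_eq_false, if_false, mul_zero]
      rcases hfr x hx with h1 | h1
      · rw [avgRel_eq_of_class hsubp g x h1]; simp
      · rw [avgRel_eq_of_class hsubq g x h1]; simp
    · simp only [ne_eq, hx, not_false_eq_true, if_true]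
      nlinarith [sq_nonneg ((avgRel rp' g x - avgRel rp g x) + (avgRel rq' g x - avgRel rq g x))]
  have hθsq : ∑ x, θ x ^ 2 = ∑ x, ((f x - f (T x)) / 2) ^ 2 := rfl
  rw [step0, hθsq]
  linarith

end PairLemma

end Vale.Agent.H75
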