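import Mathlib

/-!
Abstract averaging lemmas used for the three-row lemma (claim B) of the switch-chain
development: comparison of two averages through cross-multiplied sums, disjoint unions,
bijections and biregular correspondences.
-/

namespace Vale.Agent.H75

open Finset

section Avg

variable {α : Type*}

/-- From the cross-multiplied bound to the difference of the two averages. -/
theorem avg_sub_le_of_cross (F F' : Finset α) (f : α → ℝ) (c : ℝ)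
    (hF : F.Nonempty) (hF' : F'.Nonempty)
    (h : |(F.card : ℝ) * ∑ H ∈ F', f H - (F'.card : ℝ) * ∑ H ∈ F, f H|
      ≤ (F.card : ℝ) * (F'.card : ℝ) * c) :
    |(∑ H ∈ F, f H) / (F.card : ℝ) - (∑ H ∈ F', f H) / (F'.card : ℝ)| ≤ c := by
  have h1 : (0 : ℝ) < F.card := by exact_mod_cast hF.card_pos
  have h2 : (0 : ℝ) < F'.card := by exact_mod_cast hF'.card_pos
  have key : (∑ H ∈ F, f H) / (F.card : ℝ) - (∑ H ∈ F', f H) / (F'.card : ℝ)
      = -((F.card : ℝ) * ∑ H ∈ F', f H - (F'.card : ℝ) * ∑ H ∈ F, f H)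
        / ((F.card : ℝ) * (F'.card : ℝ)) := by
    field_simp
    ring
  rw [key, abs_div, abs_neg, abs_of_pos (mul_pos h1 h2), div_le_iff₀ (mul_pos h1 h2)]
  linarith [h]

/-- The cross-multiplied bound passes to disjoint unions of the second set. -/
theorem cross_union [DecidableEq α] (F A B : Finset α) (f : α → ℝ) (c : ℝ)
    (hd : Disjoint A B)
    (hA : |(F.card : ℝ) * ∑ H ∈ A, f H - (A.card : ℝ) * ∑ H ∈ F, f H|
      ≤ (F.card : ℝ) * (A.card : ℝ) * c)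
    (hB : |(F.card : ℝ) * ∑ H ∈ B, f H - (B.card : ℝ) * ∑ H ∈ F, f H|
      ≤ (F.card : ℝ) * (B.card : ℝ) * c) :
    |(F.card : ℝ) * ∑ H ∈ A ∪ B, f H - ((A ∪ B).card : ℝ) * ∑ H ∈ F, f H|
      ≤ (F.card : ℝ) * ((A ∪ B).card : ℝ) * c := by
  rw [Finset.sum_union hd, Finset.card_union_of_disjoint hd]
  push_cast
  have e : (F.card : ℝ) * (∑ H ∈ A, f H + ∑ H ∈ B, f H)
        - ((A.card : ℝ) + (B.card : ℝ)) * ∑ H ∈ F, f H
      = ((F.card : ℝ) * ∑ H ∈ A, f H - (A.card : ℝ) * ∑ H ∈ F, f H)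
        + ((F.card : ℝ) * ∑ H ∈ B, f H - (B.card : ℝ) * ∑ H ∈ F, f H) := by ring
  rw [e]
  have h3 := abs_add_le ((F.card : ℝ) * ∑ H ∈ A, f H - (A.card : ℝ) * ∑ H ∈ F, f H)
    ((F.card : ℝ) * ∑ H ∈ B, f H - (B.card : ℝ) * ∑ H ∈ F, f H)
  linarith [hA, hB, h3]

/-- Cross-multiplied bound from a bijection `φ : F → F1` moving `f` by at most `c`. -/
theorem cross_bij (F F1 : Finset α) (f : α → ℝ) (c : ℝ) (φ : α → α)
    (hmap : ∀ H ∈ F, φ H ∈ F1) (hinj : ∀ H ∈ F, ∀ H' ∈ F, φ H = φ H' → H = H')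
    (hsurj : ∀ K ∈ F1, ∃ H ∈ F, φ H = K)
    (hb : ∀ H ∈ F, |f H - f (φ H)| ≤ c) :
    |(F.card : ℝ) * ∑ H ∈ F1, f H - (F1.card : ℝ) * ∑ H ∈ F, f H|
      ≤ (F.card : ℝ) * (F1.card : ℝ) * c := by
  have hcard : F.card = F1.card :=
    Finset.card_bij (fun H _ => φ H) hmap (fun H hH H' hH' h => hinj H hH H' hH' h)
      (fun K hK => by obtain ⟨H, hH, h⟩ := hsurj K hK; exact ⟨H, hH, h⟩)
  have hsum : ∑ H ∈ F, f (φ H) = ∑ K ∈ F1, f K :=
    Finset.sum_bij (fun H _ => φ H) hmap (fun H hH H' hH' h => hinj H hH H' hH' h)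
      (fun K hK => by obtain ⟨H, hH, h⟩ := hsurj K hK; exact ⟨H, hH, h⟩) (fun _ _ => rfl)
  rw [← hsum, ← hcard, ← mul_sub, ← Finset.sum_sub_distrib, abs_mul,
    abs_of_nonneg (Nat.cast_nonneg _)]
  have h1 : |∑ H ∈ F, (f (φ H) - f H)| ≤ (F.card : ℝ) * c := by
    calc |∑ H ∈ F, (f (φ H) - f H)| ≤ ∑ H ∈ F, |f (φ H) - f H| :=
          Finset.abs_sum_le_sum_abs _ _
      _ ≤ ∑ _H ∈ F, c :=
          Finset.sum_le_sum (fun H hH => by rw [abs_sub_comm]; exact hb H hH)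
      _ = (F.card : ℝ) * c := by simp
  have h2 : (0 : ℝ) ≤ F.card := Nat.cast_nonneg _
  nlinarith [mul_le_mul_of_nonneg_left h1 h2]

/-- Cross-multiplied bound from a biregular correspondence: every `H ∈ F` has exactly `a`
admissible columns, every `K ∈ F3` exactly `b`, and `(H, z) ↦ (Φ H z, z)` is a bijection
between the admissible pairs, moving `f` by at most `c`. -/
theorem cross_biregular {ζ : Type*} [Fintype ζ] [DecidableEq α] [DecidableEq ζ]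
    (F F3 : Finset α) (f : α → ℝ) (c : ℝ)
    (adm adm3 : α → ζ → Prop) [∀ H, DecidablePred (adm H)] [∀ H, DecidablePred (adm3 H)]
    (a b : ℕ) (Φ : α → ζ → α)
    (ha : ∀ H ∈ F, (univ.filter (adm H)).card = a)
    (hb : ∀ K ∈ F3, (univ.filter (adm3 K)).card = b)
    (hpos : F3.Nonempty → 0 < a)
    (hmap : ∀ H ∈ F, ∀ z, adm H z → Φ H z ∈ F3 ∧ adm3 (Φ H z) z)
    (hinj : ∀ H ∈ F, ∀ H' ∈ F, ∀ z, adm H z → adm H' z → Φ H z = Φ H' z → H = H')
    (hsurj : ∀ K ∈ F3, ∀ z, adm3 K z → ∃ H ∈ F, adm H z ∧ Φ H z = K)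
    (hbd : ∀ H ∈ F, ∀ z, adm H z → |f H - f (Φ H z)| ≤ c) :
    |(F.card : ℝ) * ∑ K ∈ F3, f K - (F3.card : ℝ) * ∑ H ∈ F, f H|
      ≤ (F.card : ℝ) * (F3.card : ℝ) * c := by
  classical
  set P : Finset (Σ _ : α, ζ) := F.sigma (fun H => univ.filter (adm H)) with hP
  set P3 : Finset (Σ _ : α, ζ) := F3.sigma (fun K => univ.filter (adm3 K)) with hP3
  have hmemP : ∀ p : (Σ _ : α, ζ), p ∈ P ↔ p.1 ∈ F ∧ adm p.1 p.2 := by
    intro p; simp [hP]
  have hmemP3 : ∀ p : (Σ _ : α, ζ), p ∈ P3 ↔ p.1 ∈ F3 ∧ adm3 p.1 p.2 := by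
    intro p; simp [hP3]
  -- the bijection between admissible pairs
  have hbij_map : ∀ p ∈ P, (⟨Φ p.1 p.2, p.2⟩ : Σ _ : α, ζ) ∈ P3 := by
    intro p hp
    rw [hmemP] at hp
    rw [hmemP3]
    exact hmap p.1 hp.1 p.2 hp.2
  have hbij_inj : ∀ p ∈ P, ∀ q ∈ P,
      (⟨Φ p.1 p.2, p.2⟩ : Σ _ : α, ζ) = ⟨Φ q.1 q.2, q.2⟩ → p = q := by
    rintro ⟨H, z⟩ hp ⟨H', z'⟩ hq h
    rw [hmemP] at hp hq
    simp only [Sigma.mk.injEq, heq_eq_eq] at h
    obtain ⟨h1, h2⟩ := h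
    subst h2
    have := hinj H hp.1 H' hq.1 z hp.2 hq.2 h1
    subst this
    rfl
  have hbij_surj : ∀ q ∈ P3, ∃ p, ∃ (_ : p ∈ P), (⟨Φ p.1 p.2, p.2⟩ : Σ _ : α, ζ) = q := by
    rintro ⟨K, z⟩ hq
    rw [hmemP3] at hq
    obtain ⟨H, hH, hadm, hΦ⟩ := hsurj K hq.1 z hq.2
    refine ⟨⟨H, z⟩, (hmemP _).2 ⟨hH, hadm⟩, ?_⟩
    simp [hΦ]
  have hcard : P.card = P3.card :=
    Finset.card_bij (fun p _ => (⟨Φ p.1 p.2, p.2⟩ : Σ _ : α, ζ)) hbij_map hbij_inj hbij_surj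
  have hcardP : P.card = F.card * a := by
    rw [hP, Finset.card_sigma, Finset.sum_congr rfl ha]
    simp
  have hcardP3 : P3.card = F3.card * b := by
    rw [hP3, Finset.card_sigma, Finset.sum_congr rfl hb]
    simp
  have hsumP : ∑ p ∈ P, f p.1 = (a : ℝ) * ∑ H ∈ F, f H := by
    rw [hP, Finset.sum_sigma, Finset.mul_sum]
    refine Finset.sum_congr rfl (fun H hH => ?_)
    simp only [Finset.sum_const, ha H hH, nsmul_eq_mul]
  have hsumP3 : ∑ p ∈ P3, f p.1 = (b : ℝ) * ∑ K ∈ F3, f K := by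
    rw [hP3, Finset.sum_sigma, Finset.mul_sum]
    refine Finset.sum_congr rfl (fun K hK => ?_)
    simp only [Finset.sum_const, hb K hK, nsmul_eq_mul]
  have hsumΦ : ∑ p ∈ P, f (Φ p.1 p.2) = ∑ q ∈ P3, f q.1 :=
    Finset.sum_bij (fun p _ => (⟨Φ p.1 p.2, p.2⟩ : Σ _ : α, ζ)) hbij_map hbij_inj hbij_surj
      (fun _ _ => rfl)
  have hN : (F.card : ℝ) * a = (F3.card : ℝ) * b := by
    have : F.card * a = F3.card * b := by rw [← hcardP, ← hcardP3, hcard]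
    exact_mod_cast this
  -- the key estimate
  have hkey : |(b : ℝ) * ∑ K ∈ F3, f K - (a : ℝ) * ∑ H ∈ F, f H| ≤ (F.card : ℝ) * a * c := by
    rw [← hsumP3, ← hsumΦ, ← hsumP, ← Finset.sum_sub_distrib]
    calc |∑ p ∈ P, (f (Φ p.1 p.2) - f p.1)| ≤ ∑ p ∈ P, |f (Φ p.1 p.2) - f p.1| :=
          Finset.abs_sum_le_sum_abs _ _
      _ ≤ ∑ _p ∈ P, c := Finset.sum_le_sum (fun p hp => by
          rw [hmemP] at hp
          rw [abs_sub_comm]; exact hbd p.1 hp.1 p.2 hp.2)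
      _ = (F.card : ℝ) * a * c := by
          rw [Finset.sum_const, hcardP, nsmul_eq_mul]; push_cast; ring
  rcases F3.eq_empty_or_nonempty with h3 | h3
  · subst h3; simp
  rcases F.eq_empty_or_nonempty with h0 | h0
  · subst h0; simp
  have ha0 : (0 : ℝ) < a := by exact_mod_cast hpos h3
  have hF0 : (0 : ℝ) < F.card := by exact_mod_cast h0.card_pos
  have hF3 : (0 : ℝ) < F3.card := by exact_mod_cast h3.card_pos
  have hb0 : (0 : ℝ) < b := by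
    have : (0 : ℝ) < (F3.card : ℝ) * b := by rw [← hN]; positivity
    exact (mul_pos_iff_of_pos_left hF3).1 this
  have hab : (0 : ℝ) < a * b := mul_pos ha0 hb0
  have e : (a : ℝ) * b * ((F.card : ℝ) * ∑ K ∈ F3, f K - (F3.card : ℝ) * ∑ H ∈ F, f H)
      = ((F.card : ℝ) * a) * ((b : ℝ) * ∑ K ∈ F3, f K - (a : ℝ) * ∑ H ∈ F, f H) := by
    have h1 : (a : ℝ) * b * ((F.card : ℝ) * ∑ K ∈ F3, f K - (F3.card : ℝ) * ∑ H ∈ F, f H)
        = ((F.card : ℝ) * a) * ((b : ℝ) * ∑ K ∈ F3, f K)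
          - ((F3.card : ℝ) * b) * ((a : ℝ) * ∑ H ∈ F, f H) := by ring
    rw [h1, ← hN]; ring
  have h4 : (a : ℝ) * b * |(F.card : ℝ) * ∑ K ∈ F3, f K - (F3.card : ℝ) * ∑ H ∈ F, f H|
      ≤ (a : ℝ) * b * ((F.card : ℝ) * (F3.card : ℝ) * c) := by
    rw [← abs_of_pos hab, ← abs_mul, e, abs_mul, abs_of_pos (mul_pos hF0 ha0), abs_of_pos hab]
    have h5 := mul_le_mul_of_nonneg_left hkey (mul_pos hF0 ha0).le
    have h6 : (F.card : ℝ) * a * ((F.card : ℝ) * a * c)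
        = (a : ℝ) * b * ((F.card : ℝ) * (F3.card : ℝ) * c) := by
      have h7 : (F.card : ℝ) * a * ((F.card : ℝ) * a * c)
          = (F.card : ℝ) * a * c * ((F3.card : ℝ) * b) := by rw [← hN]; ring
      rw [h7]; ring
    linarith
  exact le_of_mul_le_mul_left h4 hab

end Avg

end Vale.Agent.H75
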