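import Vale.Agent.H90.KTV.Basic
import Vale.Agent.H7.KTV.Johnson

/-!
Entry-level description of the row-pair fibres `RelP i j G ·`, and counting of the
columns in which row `i` has a one and row `j` a zero.
-/

namespace Vale.Agent.H75

open Vale.Agent.H90 Finset

set_option linter.unusedSectionVars false

variable {R C : Type*} [Fintype R] [DecidableEq R] [Fintype C] [DecidableEq C]

/-- `1` for `true`, `0` for `false`. -/
def bn (b : Bool) : ℕ := if b = true then 1 else 0

@[simp] theorem bn_true : bn true = 1 := rfl

@[simp] theorem bn_false : bn false = 0 := rfl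

theorem bn_le_one (b : Bool) : bn b ≤ 1 := by cases b <;> simp

theorem bn_eq_one_iff (b : Bool) : bn b = 1 ↔ b = true := by cases b <;> simp

theorem bn_eq_zero_iff (b : Bool) : bn b = 0 ↔ b = false := by cases b <;> simp

/-- Entry-level form of the fibre relation. -/
theorem relP_iff (i j : R) (hij : i ≠ j) (G H : R → C → Bool) :
    RelP i j G H ↔ (∀ k, k ≠ i → k ≠ j → G k = H k) ∧ (∀ r, rowSum G r = rowSum H r) ∧
      (∀ c, bn (G i c) + bn (G j c) = bn (H i c) + bn (H j c)) := by
  unfold RelP SameMarg
  constructor
  · rintro ⟨h1, h2, h3⟩
    refine ⟨h1, h2, fun c => ?_⟩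
    have := (Vale.Agent.H7.card_filter_true_eq_iff i j hij (fun k => G k c) (fun k => H k c)
      (fun k hki hkj => by rw [h1 k hki hkj])).1 (h3 c)
    simpa [bn] using this
  · rintro ⟨h1, h2, h3⟩
    refine ⟨h1, h2, fun c => ?_⟩
    have := (Vale.Agent.H7.card_filter_true_eq_iff i j hij (fun k => G k c) (fun k => H k c)
      (fun k hki hkj => by rw [h1 k hki hkj])).2 (by simpa [bn] using h3 c)
    simpa [colSum] using this

/-- Columns with a one in row `i` and a zero in row `j`, plus the columns with two ones,
give the row sum of row `i`. -/
theorem card_adm_add (i j : R) (M : R → C → Bool) :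
    (univ.filter (fun z => M i z = true ∧ M j z = false)).card
      + (univ.filter (fun z => bn (M i z) + bn (M j z) = 2)).card = rowSum M i := by
  unfold rowSum
  rw [← Finset.card_union_of_disjoint]
  · congr 1
    ext z
    simp only [mem_union, mem_filter, mem_univ, true_and]
    cases h1 : M i z <;> cases h2 : M j z <;> simp
  · rw [Finset.disjoint_left]
    intro z hz hz'
    simp only [mem_filter, mem_univ, true_and] at hz hz'
    rw [hz.1, hz.2] at hz'
    simp at hz'

/-- The number of columns with a one in row `i` and a zero in row `j` is a fibre invariant. -/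
theorem card_adm_eq (i j : R) (G H : R → C → Bool) (hrow : rowSum G i = rowSum H i)
    (hpair : ∀ c, bn (G i c) + bn (G j c) = bn (H i c) + bn (H j c)) :
    (univ.filter (fun z => H i z = true ∧ H j z = false)).card
      = (univ.filter (fun z => G i z = true ∧ G j z = false)).card := by
  have h1 := card_adm_add i j G
  have h2 := card_adm_add i j H
  have h3 : (univ.filter (fun z => bn (G i z) + bn (G j z) = 2))
      = (univ.filter (fun z => bn (H i z) + bn (H j z) = 2)) := by
    ext z
    simp only [mem_filter, mem_univ, true_and]
    rw [hpair z]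
  rw [h3] at h1
  omega

end Vale.Agent.H75
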