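import Vale.Agent.H75.KTV.Avg
import Vale.Agent.H75.KTV.Fibre

/-!
Three-row lemma, claim B, core case (`g3_caseI`).
-/

namespace Vale.Agent.H75

open Vale.Agent.H90 Finset

set_option linter.unusedSectionVars false
set_option linter.unusedVariables false

variable {R C : Type*} [Fintype R] [DecidableEq R] [Fintype C] [DecidableEq C]

/-- The standing configuration: rows `a, b, e` distinct, and the pattern of `G` in the
columns `x, y`. -/
structure Cfg (a b e : R) (G : R → C → Bool) (x y : C) : Prop where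
  hab : a ≠ b
  hae : a ≠ e
  hbe : b ≠ e
  hax : G a x = true
  hay : G a y = false
  hbx : G b x = false
  hby : G b y = true
  hex : G e x = true
  hey : G e y = false

namespace Cfg

variable {a b e : R} {G : R → C → Bool} {x y : C}

theorem hxy (h : Cfg a b e G x y) : x ≠ y := by
  rintro rfl
  have := h.hax
  rw [h.hay] at this
  exact Bool.noConfusion this

/-- Entry facts for a matrix of the fibre `F` of `G`. -/
theorem factsF (h : Cfg a b e G x y) {H : R → C → Bool} (hH : RelP a e G H) :
    H a x = true ∧ H a y = false ∧ H e x = true ∧ H e y = false ∧ H b = G b ∧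
      (∀ c, bn (H a c) + bn (H e c) = bn (G a c) + bn (G e c)) ∧
      (∀ r, rowSum H r = rowSum G r) ∧ (∀ k, k ≠ a → k ≠ e → H k = G k) := by
  obtain ⟨h1, h2, h3⟩ := (relP_iff a e h.hae G H).1 hH
  have hx := h3 x
  have hy := h3 y
  rw [h.hax, h.hex] at hx
  rw [h.hay, h.hey] at hy
  simp only [bn_true, bn_false] at hx hy
  have b1 := bn_le_one (H a x)
  have b2 := bn_le_one (H e x)
  refine ⟨(bn_eq_one_iff _).1 (by omega), (bn_eq_zero_iff _).1 (by omega),
    (bn_eq_one_iff _).1 (by omega), (bn_eq_zero_iff _).1 (by omega),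
    (h1 b h.hab.symm h.hbe).symm, fun c => (h3 c).symm, fun r => (h2 r).symm,
    fun k hka hke => (h1 k hka hke).symm⟩

/-- Entries of `G' = colSwap {a, b} x y G`. -/
theorem G'_a (h : Cfg a b e G x y) (c : C) :
    colSwap {a, b} x y G a c = G a (Equiv.swap x y c) := by
  simp [colSwap]

theorem G'_b (h : Cfg a b e G x y) (c : C) :
    colSwap {a, b} x y G b c = G b (Equiv.swap x y c) := by
  simp [colSwap]

theorem G'_other (h : Cfg a b e G x y) {k : R} (hka : k ≠ a) (hkb : k ≠ b) :
    colSwap {a, b} x y G k = G k := by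
  funext c
  simp [colSwap, hka, hkb]

/-- `G'` has the margins of `G`. -/
theorem sameMarg_G' (h : Cfg a b e G x y) : SameMarg G (colSwap {a, b} x y G) := by
  have hxy := h.hxy
  have : RelP a b G (colSwap {a, b} x y G) := by
    rw [relP_iff a b h.hab]
    refine ⟨fun k hka hkb => (h.G'_other hka hkb).symm, fun r => (rowSum_colSwap _ _ _ _ _).symm,
      fun c => ?_⟩
    rw [h.G'_a, h.G'_b]
    rcases eq_or_ne c x with hcx | hcx
    · rw [hcx, Equiv.swap_apply_left, h.hax, h.hay, h.hbx, h.hby]; rfl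
    · rcases eq_or_ne c y with hcy | hcy
      · rw [hcy, Equiv.swap_apply_right, h.hax, h.hay, h.hbx, h.hby]; rfl
      · rw [Equiv.swap_apply_of_ne_of_ne hcx hcy]
  exact this.2

/-- Entry facts for a matrix of the fibre `F'` of `G' = colSwap {a, b} x y G`. -/
theorem factsF' (h : Cfg a b e G x y) {K : R → C → Bool}
    (hK : RelP a e (colSwap {a, b} x y G) K) :
    bn (K a x) + bn (K e x) = 1 ∧ bn (K a y) + bn (K e y) = 1 ∧
      (∀ c, K b c = G b (Equiv.swap x y c)) ∧
      (∀ c, c ≠ x → c ≠ y → bn (K a c) + bn (K e c) = bn (G a c) + bn (G e c)) ∧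
      (∀ r, rowSum K r = rowSum G r) ∧ (∀ k, k ≠ a → k ≠ e → k ≠ b → K k = G k) := by
  obtain ⟨h1, h2, h3⟩ := (relP_iff a e h.hae _ K).1 hK
  have he' : colSwap {a, b} x y G e = G e := h.G'_other h.hae.symm h.hbe.symm
  refine ⟨?_, ?_, fun c => ?_, fun c hcx hcy => ?_, fun r => ?_, fun k hka hke hkb => ?_⟩
  · have := h3 x
    rw [h.G'_a, he', Equiv.swap_apply_left, h.hay, h.hex] at this
    simpa using this.symm
  · have := h3 y
    rw [h.G'_a, he', Equiv.swap_apply_right, h.hax, h.hey] at this
    simpa using this.symm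
  · rw [← h1 b h.hab.symm h.hbe, h.G'_b]
  · have := h3 c
    rw [h.G'_a, he', Equiv.swap_apply_of_ne_of_ne hcx hcy] at this
    exact this.symm
  · rw [← h2 r, rowSum_colSwap]
  · rw [← h1 k hka hke, h.G'_other hka hkb]

/-- Criterion for membership in the fibre `F'`. -/
theorem memF' (h : Cfg a b e G x y) {K : R → C → Bool}
    (hb : ∀ c, K b c = G b (Equiv.swap x y c))
    (hother : ∀ k, k ≠ a → k ≠ e → k ≠ b → K k = G k)
    (hrow : ∀ r, rowSum K r = rowSum G r)
    (hpair : ∀ c, bn (K a c) + bn (K e c) = bn (G a (Equiv.swap x y c)) + bn (G e c)) :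
    RelP a e (colSwap {a, b} x y G) K := by
  rw [relP_iff a e h.hae]
  have he' : colSwap {a, b} x y G e = G e := h.G'_other h.hae.symm h.hbe.symm
  refine ⟨fun k hka hke => ?_, fun r => ?_, fun c => ?_⟩
  · by_cases hkb : k = b
    · funext c
      rw [hkb, h.G'_b, hb]
    · rw [h.G'_other hka hkb, hother k hka hke hkb]
  · rw [rowSum_colSwap, hrow]
  · rw [h.G'_a, he', hpair]

/-- Criterion for membership in the fibre `F`. -/
theorem memF (h : Cfg a b e G x y) {H : R → C → Bool}
    (hother : ∀ k, k ≠ a → k ≠ e → H k = G k)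
    (hrow : ∀ r, rowSum H r = rowSum G r)
    (hpair : ∀ c, bn (H a c) + bn (H e c) = bn (G a c) + bn (G e c)) :
    RelP a e G H := by
  rw [relP_iff a e h.hae]
  exact ⟨fun k hka hke => (hother k hka hke).symm, fun r => (hrow r).symm,
    fun c => (hpair c).symm⟩

end Cfg

/-- Rows `a`, `e` are permuted columnwise by `σa`, `σe`; row `b` has its columns `x, y`
exchanged; the other rows are kept. -/
def tr (a b e : R) (x y : C) (σa σe : Equiv.Perm C) (H : R → C → Bool) : R → C → Bool :=
  fun r c => if r = a then H a (σa c) else if r = e then H e (σe c)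
    else if r = b then H b (Equiv.swap x y c) else H r c

section tr

variable {a b e : R} {G : R → C → Bool} {x y : C}

theorem tr_a (σa σe : Equiv.Perm C) (H : R → C → Bool) (c : C) :
    tr a b e x y σa σe H a c = H a (σa c) := by
  simp [tr]

theorem tr_e (hae : a ≠ e) (σa σe : Equiv.Perm C) (H : R → C → Bool) (c : C) :
    tr a b e x y σa σe H e c = H e (σe c) := by
  simp [tr, hae.symm]

theorem tr_b (hab : a ≠ b) (hbe : b ≠ e) (σa σe : Equiv.Perm C) (H : R → C → Bool) (c : C) :
    tr a b e x y σa σe H b c = H b (Equiv.swap x y c) := by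
  simp [tr, hab.symm, hbe]

theorem tr_other (σa σe : Equiv.Perm C) (H : R → C → Bool) {k : R} (hka : k ≠ a)
    (hke : k ≠ e) (hkb : k ≠ b) : tr a b e x y σa σe H k = H k := by
  funext c
  simp [tr, hka, hke, hkb]

theorem rowSum_tr (σa σe : Equiv.Perm C) (H : R → C → Bool) (r : R) :
    rowSum (tr a b e x y σa σe H) r = rowSum H r := by
  unfold rowSum
  by_cases hra : r = a
  · subst hra
    refine Finset.card_equiv σa ?_
    intro c
    simp [tr]
  · by_cases hre : r = e
    · subst hre
      refine Finset.card_equiv σe ?_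
      intro c
      simp [tr, hra]
    · by_cases hrb : r = b
      · subst hrb
        refine Finset.card_equiv (Equiv.swap x y) ?_
        intro c
        simp [tr, hra, hre]
      · simp [tr, hra, hre, hrb]

theorem tr_tr (σa σe : Equiv.Perm C) (hσa : ∀ c, σa (σa c) = c) (hσe : ∀ c, σe (σe c) = c)
    (H : R → C → Bool) : tr a b e x y σa σe (tr a b e x y σa σe H) = H := by
  funext r c
  by_cases hra : r = a
  · subst hra
    simp [tr, hσa]
  · by_cases hre : r = e
    · subst hre
      simp [tr, hra, hσe]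
    · by_cases hrb : r = b
      · subst hrb
        simp [tr, hra, hre]
      · simp [tr, hra, hre, hrb]

/-- Forward membership: from the fibre `F` to the fibre `F'`. -/
theorem Cfg.tr_memF' (h : Cfg a b e G x y) (σa σe : Equiv.Perm C) {H : R → C → Bool}
    (hH : RelP a e G H)
    (hpair : ∀ c, bn (H a (σa c)) + bn (H e (σe c))
      = bn (G a (Equiv.swap x y c)) + bn (G e c)) :
    RelP a e (colSwap {a, b} x y G) (tr a b e x y σa σe H) := by
  obtain ⟨-, -, -, -, hb, -, hrow, hother⟩ := h.factsF hH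
  refine h.memF' (fun c => ?_) (fun k hka hke hkb => ?_) (fun r => ?_) (fun c => ?_)
  · rw [tr_b h.hab h.hbe, hb]
  · rw [tr_other σa σe H hka hke hkb, hother k hka hke]
  · rw [rowSum_tr, hrow]
  · rw [tr_a, tr_e h.hae, hpair]

/-- Backward membership: from the fibre `F'` to the fibre `F`. -/
theorem Cfg.tr_memF (h : Cfg a b e G x y) (σa σe : Equiv.Perm C) {K : R → C → Bool}
    (hK : RelP a e (colSwap {a, b} x y G) K)
    (hpair : ∀ c, bn (K a (σa c)) + bn (K e (σe c)) = bn (G a c) + bn (G e c)) :
    RelP a e G (tr a b e x y σa σe K) := by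
  obtain ⟨-, -, hb, -, hrow, hother⟩ := h.factsF' hK
  refine h.memF (fun k hka hke => ?_) (fun r => ?_) (fun c => ?_)
  · by_cases hkb : k = b
    · funext c
      rw [hkb, tr_b h.hab h.hbe, hb, Equiv.swap_apply_self]
    · rw [tr_other σa σe K hka hke hkb, hother k hka hke hkb]
  · rw [rowSum_tr, hrow]
  · rw [tr_a, tr_e h.hae, hpair]

/-- The swap of the columns `x, y` in the rows `b, e` is a `tr`. -/
theorem Cfg.colSwap_be (h : Cfg a b e G x y) (H : R → C → Bool) :
    colSwap {b, e} x y H = tr a b e x y (Equiv.refl C) (Equiv.swap x y) H := by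
  have hab := h.hab
  have hae := h.hae
  have hbe := h.hbe
  funext r c
  by_cases hra : r = a
  · subst hra
    simp [tr, colSwap, hab, hae]
  · by_cases hre : r = e
    · subst hre
      simp [tr, colSwap, hra]
    · by_cases hrb : r = b
      · subst hrb
        simp [tr, colSwap, hra, hre]
      · simp [tr, colSwap, hra, hre, hrb]

/-- The swap of the columns `x, y` in the rows `a, b` is a `tr`. -/
theorem Cfg.colSwap_ab (h : Cfg a b e G x y) (H : R → C → Bool) :
    colSwap {a, b} x y H = tr a b e x y (Equiv.swap x y) (Equiv.refl C) H := by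
  have hab := h.hab
  have hae := h.hae
  have hbe := h.hbe
  funext r c
  by_cases hra : r = a
  · subst hra
    simp [tr, colSwap]
  · by_cases hre : r = e
    · subst hre
      simp [tr, colSwap, hra, Ne.symm hbe]
    · by_cases hrb : r = b
      · subst hrb
        simp [tr, colSwap, hra, hre]
      · simp [tr, colSwap, hra, hre, hrb]

end tr

theorem forall_col2 {P : C → Prop} (x y : C) (hx : P x) (hy : P y)
    (ho : ∀ c, c ≠ x → c ≠ y → P c) : ∀ c, P c := by
  intro c
  by_cases h1 : c = x
  · rw [h1]; exact hx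
  · by_cases h2 : c = y
    · rw [h2]; exact hy
    · exact ho c h1 h2

theorem forall_col3 {P : C → Prop} (x y z : C) (hx : P x) (hy : P y) (hz : P z)
    (ho : ∀ c, c ≠ x → c ≠ y → c ≠ z → P c) : ∀ c, P c := by
  intro c
  by_cases h1 : c = x
  · rw [h1]; exact hx
  · by_cases h2 : c = y
    · rw [h2]; exact hy
    · by_cases h3 : c = z
      · rw [h3]; exact hz
      · exact ho c h1 h2 h3

section parts

variable {a b e : R} {G : R → C → Bool} {x y : C}

/-- The map `F → F1`. -/
theorem Cfg.map1 (h : Cfg a b e G x y) {H : R → C → Bool} (hH : RelP a e G H) :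
    RelP a e (colSwap {a, b} x y G) (tr a b e x y (Equiv.refl C) (Equiv.swap x y) H) := by
  obtain ⟨hHax, hHay, hHex, hHey, -, hpair, -, -⟩ := h.factsF hH
  refine h.tr_memF' _ _ hH (forall_col2 x y ?_ ?_ ?_)
  · simp [hHax, hHey, h.hay, h.hex]
  · simp [hHay, hHex, h.hax, h.hey]
  · intro c hcx hcy
    simp [Equiv.swap_apply_of_ne_of_ne hcx hcy, hpair c]

/-- The map `F1 → F`. -/
theorem Cfg.inv1 (h : Cfg a b e G x y) {K : R → C → Bool}
    (hK : RelP a e (colSwap {a, b} x y G) K) (hKx : K a x = true) (hKy : K a y = false) :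
    RelP a e G (tr a b e x y (Equiv.refl C) (Equiv.swap x y) K) := by
  obtain ⟨h1, h2, -, hpair, -, -⟩ := h.factsF' hK
  rw [hKx] at h1
  rw [hKy] at h2
  simp only [bn_true, bn_false] at h1 h2
  have hKex : bn (K e x) = 0 := by omega
  have hKey : bn (K e y) = 1 := by omega
  refine h.tr_memF _ _ hK (forall_col2 x y ?_ ?_ ?_)
  · simp [hKx, hKey, h.hax, h.hex]
  · simp [hKy, hKex, h.hay, h.hey]
  · intro c hcx hcy
    simp [Equiv.swap_apply_of_ne_of_ne hcx hcy, hpair c hcx hcy]

/-- The map `F → F2`. -/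
theorem Cfg.map2 (h : Cfg a b e G x y) {H : R → C → Bool} (hH : RelP a e G H) :
    RelP a e (colSwap {a, b} x y G) (tr a b e x y (Equiv.swap x y) (Equiv.refl C) H) := by
  obtain ⟨hHax, hHay, hHex, hHey, -, hpair, -, -⟩ := h.factsF hH
  refine h.tr_memF' _ _ hH (forall_col2 x y ?_ ?_ ?_)
  · simp [hHay, hHex, h.hay, h.hex]
  · simp [hHax, hHey, h.hax, h.hey]
  · intro c hcx hcy
    simp [Equiv.swap_apply_of_ne_of_ne hcx hcy, hpair c]

/-- The map `F2 → F`. -/
theorem Cfg.inv2 (h : Cfg a b e G x y) {K : R → C → Bool}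
    (hK : RelP a e (colSwap {a, b} x y G) K) (hKx : K a x = false) (hKy : K a y = true) :
    RelP a e G (tr a b e x y (Equiv.swap x y) (Equiv.refl C) K) := by
  obtain ⟨h1, h2, -, hpair, -, -⟩ := h.factsF' hK
  rw [hKx] at h1
  rw [hKy] at h2
  simp only [bn_true, bn_false] at h1 h2
  have hKex : bn (K e x) = 1 := by omega
  have hKey : bn (K e y) = 0 := by omega
  refine h.tr_memF _ _ hK (forall_col2 x y ?_ ?_ ?_)
  · simp [hKy, hKex, h.hax, h.hex]
  · simp [hKx, hKey, h.hay, h.hey]
  · intro c hcx hcy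
    simp [Equiv.swap_apply_of_ne_of_ne hcx hcy, hpair c hcx hcy]

/-- The map `F → F3` (for an admissible column `z`). -/
theorem Cfg.map3 (h : Cfg a b e G x y) {H : R → C → Bool} (hH : RelP a e G H) {z : C}
    (hz1 : H a z = true) (hz2 : H e z = false) :
    RelP a e (colSwap {a, b} x y G) (tr a b e x y (Equiv.swap y z) (Equiv.swap x z) H) := by
  obtain ⟨hHax, hHay, hHex, hHey, -, hpair, -, -⟩ := h.factsF hH
  have hxy := h.hxy
  have hzx : z ≠ x := by rintro rfl; rw [hHex] at hz2; exact Bool.noConfusion hz2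
  have hzy : z ≠ y := by rintro rfl; rw [hHay] at hz1; exact Bool.noConfusion hz1
  have hpz := hpair z
  rw [hz1, hz2] at hpz
  refine h.tr_memF' _ _ hH (forall_col3 x y z ?_ ?_ ?_ ?_)
  · simp [Equiv.swap_apply_of_ne_of_ne hxy hzx.symm, hHax, hz2, h.hay, h.hex]
  · simp [Equiv.swap_apply_of_ne_of_ne hxy.symm hzy.symm, hz1, hHey, h.hax, h.hey]
  · simp [Equiv.swap_apply_of_ne_of_ne hzx hzy, hHay, hHex, ← hpz]
  · intro c hcx hcy hcz
    simp [Equiv.swap_apply_of_ne_of_ne hcx hcy, Equiv.swap_apply_of_ne_of_ne hcx hcz,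
      Equiv.swap_apply_of_ne_of_ne hcy hcz, hpair c]

/-- The map `F3 → F` (for an admissible column `z`). -/
theorem Cfg.inv3 (h : Cfg a b e G x y) {K : R → C → Bool}
    (hK : RelP a e (colSwap {a, b} x y G) K) (hKx : K a x = true) (hKy : K a y = true) {z : C}
    (hz1 : K e z = true) (hz2 : K a z = false) :
    RelP a e G (tr a b e x y (Equiv.swap y z) (Equiv.swap x z) K) := by
  obtain ⟨h1, h2, -, hpair, -, -⟩ := h.factsF' hK
  rw [hKx] at h1
  rw [hKy] at h2
  simp only [bn_true, bn_false] at h1 h2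
  have hKex : bn (K e x) = 0 := by omega
  have hKey : bn (K e y) = 0 := by omega
  have hxy := h.hxy
  have hzx : z ≠ x := by rintro rfl; rw [hKx] at hz2; exact Bool.noConfusion hz2
  have hzy : z ≠ y := by rintro rfl; rw [hKy] at hz2; exact Bool.noConfusion hz2
  have hpz := hpair z hzx hzy
  rw [hz1, hz2] at hpz
  refine h.tr_memF _ _ hK (forall_col3 x y z ?_ ?_ ?_ ?_)
  · simp [Equiv.swap_apply_of_ne_of_ne hxy hzx.symm, hKx, hz1, h.hax, h.hex]
  · simp [Equiv.swap_apply_of_ne_of_ne hxy.symm hzy.symm, hz2, hKey, h.hay, h.hey]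
  · simp [hKy, hKex, ← hpz]
  · intro c hcx hcy hcz
    simp [Equiv.swap_apply_of_ne_of_ne hcx hcz,
      Equiv.swap_apply_of_ne_of_ne hcy hcz, hpair c hcx hcy]

/-- The map `F → F4` (for an admissible column `z`). -/
theorem Cfg.map4 (h : Cfg a b e G x y) {H : R → C → Bool} (hH : RelP a e G H) {z : C}
    (hz1 : H e z = true) (hz2 : H a z = false) :
    RelP a e (colSwap {a, b} x y G) (tr a b e x y (Equiv.swap x z) (Equiv.swap y z) H) := by
  obtain ⟨hHax, hHay, hHex, hHey, -, hpair, -, -⟩ := h.factsF hH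
  have hxy := h.hxy
  have hzx : z ≠ x := by rintro rfl; rw [hHax] at hz2; exact Bool.noConfusion hz2
  have hzy : z ≠ y := by rintro rfl; rw [hHey] at hz1; exact Bool.noConfusion hz1
  have hpz := hpair z
  rw [hz1, hz2] at hpz
  refine h.tr_memF' _ _ hH (forall_col3 x y z ?_ ?_ ?_ ?_)
  · simp [Equiv.swap_apply_of_ne_of_ne hxy hzx.symm, hz2, hHex, h.hay, h.hex]
  · simp [Equiv.swap_apply_of_ne_of_ne hxy.symm hzy.symm, hHay, hz1, h.hax, h.hey]
  · simp [Equiv.swap_apply_of_ne_of_ne hzx hzy, hHax, hHey, ← hpz]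
  · intro c hcx hcy hcz
    simp [Equiv.swap_apply_of_ne_of_ne hcx hcy, Equiv.swap_apply_of_ne_of_ne hcx hcz,
      Equiv.swap_apply_of_ne_of_ne hcy hcz, hpair c]

/-- The map `F4 → F` (for an admissible column `z`). -/
theorem Cfg.inv4 (h : Cfg a b e G x y) {K : R → C → Bool}
    (hK : RelP a e (colSwap {a, b} x y G) K) (hKx : K a x = false) (hKy : K a y = false) {z : C}
    (hz1 : K a z = true) (hz2 : K e z = false) :
    RelP a e G (tr a b e x y (Equiv.swap x z) (Equiv.swap y z) K) := by
  obtain ⟨h1, h2, -, hpair, -, -⟩ := h.factsF' hK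
  rw [hKx] at h1
  rw [hKy] at h2
  simp only [bn_true, bn_false] at h1 h2
  have hKex : bn (K e x) = 1 := by omega
  have hKey : bn (K e y) = 1 := by omega
  have hxy := h.hxy
  have hzx : z ≠ x := by rintro rfl; rw [hKx] at hz1; exact Bool.noConfusion hz1
  have hzy : z ≠ y := by rintro rfl; rw [hKy] at hz1; exact Bool.noConfusion hz1
  have hpz := hpair z hzx hzy
  rw [hz1, hz2] at hpz
  refine h.tr_memF _ _ hK (forall_col3 x y z ?_ ?_ ?_ ?_)
  · simp [Equiv.swap_apply_of_ne_of_ne hxy hzx.symm, hz1, hKex, h.hax, h.hex]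
  · simp [Equiv.swap_apply_of_ne_of_ne hxy.symm hzy.symm, hKy, hz2, h.hay, h.hey]
  · simp [hKx, hKey, ← hpz]
  · intro c hcx hcy hcz
    simp [Equiv.swap_apply_of_ne_of_ne hcx hcz,
      Equiv.swap_apply_of_ne_of_ne hcy hcz, hpair c hcx hcy]

/-- A column swap in the three rows applied to a `tr` is again a `tr`. -/
theorem Cfg.colSwap_tr (h : Cfg a b e G x y) (p q : C) (σa σe σa' σe' : Equiv.Perm C)
    (H : R → C → Bool)
    (ha : ∀ c, H a (σa (Equiv.swap p q c)) = H a (σa' c))
    (he : ∀ c, H e (σe (Equiv.swap p q c)) = H e (σe' c))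
    (hb : ∀ c, H b (Equiv.swap x y (Equiv.swap p q c)) = H b (Equiv.swap x y c)) :
    colSwap {a, b, e} p q (tr a b e x y σa σe H) = tr a b e x y σa' σe' H := by
  have hab := h.hab
  have hae := h.hae
  have hbe := h.hbe
  funext r c
  by_cases hra : r = a
  · subst hra
    simp [tr, colSwap, ha]
  · by_cases hre : r = e
    · subst hre
      simp [tr, colSwap, hra, he]
    · by_cases hrb : r = b
      · subst hrb
        simp [tr, colSwap, hra, hre, hb]
      · simp [tr, colSwap, hra, hre, hrb]

variable (f : (R → C → Bool) → ℝ) (LA LB : ℝ)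

/-- `F → F1` moves `f` by at most `LB`. -/
theorem Cfg.bound1 (h : Cfg a b e G x y)
    (hB : ∀ A A', (RelB a b e A A' ∨ RelB b e a A A' ∨ RelB e a b A A') → |f A - f A'| ≤ LB)
    {H : R → C → Bool} (hH : RelP a e G H) :
    |f H - f (tr a b e x y (Equiv.refl C) (Equiv.swap x y) H)| ≤ LB := by
  obtain ⟨hHax, hHay, -, -, -, -, -, -⟩ := h.factsF hH
  have hm := h.map1 hH
  refine hB _ _ (Or.inr (Or.inl ⟨x, y, (h.colSwap_be H).symm, ?_, ?_⟩))
  · exact sameMarg_trans (sameMarg_symm hH.2) (sameMarg_trans h.sameMarg_G' hm.2)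
  · rw [hHax, hHay]; exact Bool.noConfusion

/-- `F → F2` moves `f` by at most `LB`. -/
theorem Cfg.bound2 (h : Cfg a b e G x y)
    (hB : ∀ A A', (RelB a b e A A' ∨ RelB b e a A A' ∨ RelB e a b A A') → |f A - f A'| ≤ LB)
    {H : R → C → Bool} (hH : RelP a e G H) :
    |f H - f (tr a b e x y (Equiv.swap x y) (Equiv.refl C) H)| ≤ LB := by
  obtain ⟨-, -, hHex, hHey, -, -, -, -⟩ := h.factsF hH
  have hm := h.map2 hH
  refine hB _ _ (Or.inl ⟨x, y, (h.colSwap_ab H).symm, ?_, ?_⟩)
  · exact sameMarg_trans (sameMarg_symm hH.2) (sameMarg_trans h.sameMarg_G' hm.2)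
  · rw [hHex, hHey]; exact Bool.noConfusion

/-- `F → F3` moves `f` by at most `LA + LB`. -/
theorem Cfg.bound3 (h : Cfg a b e G x y)
    (hA : ∀ A x y, SameMarg A (colSwap {a, b, e} x y A) →
      |f A - f (colSwap {a, b, e} x y A)| ≤ LA)
    (hB : ∀ A A', (RelB a b e A A' ∨ RelB b e a A A' ∨ RelB e a b A A') → |f A - f A'| ≤ LB)
    {H : R → C → Bool} (hH : RelP a e G H) {z : C}
    (hz1 : H a z = true) (hz2 : H e z = false) :
    |f H - f (tr a b e x y (Equiv.swap y z) (Equiv.swap x z) H)| ≤ LA + LB := by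
  obtain ⟨hHax, hHay, hHex, hHey, hHb, -, -, -⟩ := h.factsF hH
  have hxy := h.hxy
  have hzx : z ≠ x := by rintro rfl; rw [hHex] at hz2; exact Bool.noConfusion hz2
  have hzy : z ≠ y := by rintro rfl; rw [hHay] at hz1; exact Bool.noConfusion hz1
  have hK := h.map3 hH hz1 hz2
  have hHbx : H b x = false := by rw [hHb]; exact h.hbx
  have hHby : H b y = true := by rw [hHb]; exact h.hby
  cases hbz : H b z
  · -- third row has a zero in column `z`: compare with `F1`
    have e1 : colSwap {a, b, e} y z (tr a b e x y (Equiv.swap y z) (Equiv.swap x z) H)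
        = tr a b e x y (Equiv.refl C) (Equiv.swap x y) H := by
      refine h.colSwap_tr y z _ _ _ _ H (fun c => by simp) (forall_col3 x y z ?_ ?_ ?_ ?_)
        (forall_col3 x y z ?_ ?_ ?_ ?_)
      · simp [Equiv.swap_apply_of_ne_of_ne hxy hzx.symm, hz2, hHey]
      · simp [hHex]
      · simp [Equiv.swap_apply_of_ne_of_ne hxy.symm hzy.symm,
          Equiv.swap_apply_of_ne_of_ne hzx hzy, hHey, hz2]
      · intro c hcx hcy hcz
        simp [Equiv.swap_apply_of_ne_of_ne hcx hcy, Equiv.swap_apply_of_ne_of_ne hcx hcz,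
          Equiv.swap_apply_of_ne_of_ne hcy hcz]
      · simp [Equiv.swap_apply_of_ne_of_ne hxy hzx.symm]
      · simp [Equiv.swap_apply_of_ne_of_ne hzx hzy, hbz, hHbx]
      · simp [Equiv.swap_apply_of_ne_of_ne hzx hzy, hbz, hHbx]
      · intro c hcx hcy hcz
        simp [Equiv.swap_apply_of_ne_of_ne hcx hcy, Equiv.swap_apply_of_ne_of_ne hcy hcz]
    have hm := h.map1 hH
    have s1 : SameMarg (tr a b e x y (Equiv.swap y z) (Equiv.swap x z) H)
        (colSwap {a, b, e} y z (tr a b e x y (Equiv.swap y z) (Equiv.swap x z) H)) := by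
      rw [e1]; exact sameMarg_trans (sameMarg_symm hK.2) hm.2
    have b1 := hA _ y z s1
    rw [e1] at b1
    have b2 := h.bound1 f LB hB hH
    have b3 := abs_sub_le (f H) (f (tr a b e x y (Equiv.refl C) (Equiv.swap x y) H))
      (f (tr a b e x y (Equiv.swap y z) (Equiv.swap x z) H))
    rw [abs_sub_comm] at b1
    linarith
  · -- third row has a one in column `z`: compare with `F2`
    have e1 : colSwap {a, b, e} x z (tr a b e x y (Equiv.swap y z) (Equiv.swap x z) H)
        = tr a b e x y (Equiv.swap x y) (Equiv.refl C) H := by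
      refine h.colSwap_tr x z _ _ _ _ H (forall_col3 x y z ?_ ?_ ?_ ?_) (fun c => by simp)
        (forall_col3 x y z ?_ ?_ ?_ ?_)
      · simp [hHay]
      · simp [Equiv.swap_apply_of_ne_of_ne hxy.symm hzy.symm, hz1, hHax]
      · simp [Equiv.swap_apply_of_ne_of_ne hxy hzx.symm,
          Equiv.swap_apply_of_ne_of_ne hzx hzy, hHax, hz1]
      · intro c hcx hcy hcz
        simp [Equiv.swap_apply_of_ne_of_ne hcx hcy, Equiv.swap_apply_of_ne_of_ne hcx hcz,
          Equiv.swap_apply_of_ne_of_ne hcy hcz]
      · simp [Equiv.swap_apply_of_ne_of_ne hzx hzy, hbz, hHby]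
      · simp [Equiv.swap_apply_of_ne_of_ne hxy.symm hzy.symm]
      · simp [Equiv.swap_apply_of_ne_of_ne hzx hzy, hbz, hHby]
      · intro c hcx hcy hcz
        simp [Equiv.swap_apply_of_ne_of_ne hcx hcy, Equiv.swap_apply_of_ne_of_ne hcx hcz]
    have hm := h.map2 hH
    have s1 : SameMarg (tr a b e x y (Equiv.swap y z) (Equiv.swap x z) H)
        (colSwap {a, b, e} x z (tr a b e x y (Equiv.swap y z) (Equiv.swap x z) H)) := by
      rw [e1]; exact sameMarg_trans (sameMarg_symm hK.2) hm.2
    have b1 := hA _ x z s1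
    rw [e1] at b1
    have b2 := h.bound2 f LB hB hH
    have b3 := abs_sub_le (f H) (f (tr a b e x y (Equiv.swap x y) (Equiv.refl C) H))
      (f (tr a b e x y (Equiv.swap y z) (Equiv.swap x z) H))
    rw [abs_sub_comm] at b1
    linarith

/-- `F → F4` moves `f` by at most `LA + LB`. -/
theorem Cfg.bound4 (h : Cfg a b e G x y)
    (hA : ∀ A x y, SameMarg A (colSwap {a, b, e} x y A) →
      |f A - f (colSwap {a, b, e} x y A)| ≤ LA)
    (hB : ∀ A A', (RelB a b e A A' ∨ RelB b e a A A' ∨ RelB e a b A A') → |f A - f A'| ≤ LB)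
    {H : R → C → Bool} (hH : RelP a e G H) {z : C}
    (hz1 : H e z = true) (hz2 : H a z = false) :
    |f H - f (tr a b e x y (Equiv.swap x z) (Equiv.swap y z) H)| ≤ LA + LB := by
  obtain ⟨hHax, hHay, hHex, hHey, hHb, -, -, -⟩ := h.factsF hH
  have hxy := h.hxy
  have hzx : z ≠ x := by rintro rfl; rw [hHax] at hz2; exact Bool.noConfusion hz2
  have hzy : z ≠ y := by rintro rfl; rw [hHey] at hz1; exact Bool.noConfusion hz1
  have hK := h.map4 hH hz1 hz2
  have hHbx : H b x = false := by rw [hHb]; exact h.hbx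
  have hHby : H b y = true := by rw [hHb]; exact h.hby
  cases hbz : H b z
  · -- third row has a zero in column `z`: compare with `F2`
    have e1 : colSwap {a, b, e} y z (tr a b e x y (Equiv.swap x z) (Equiv.swap y z) H)
        = tr a b e x y (Equiv.swap x y) (Equiv.refl C) H := by
      refine h.colSwap_tr y z _ _ _ _ H (forall_col3 x y z ?_ ?_ ?_ ?_) (fun c => by simp)
        (forall_col3 x y z ?_ ?_ ?_ ?_)
      · simp [Equiv.swap_apply_of_ne_of_ne hxy hzx.symm, hz2, hHay]
      · simp
      · simp [Equiv.swap_apply_of_ne_of_ne hxy.symm hzy.symm,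
          Equiv.swap_apply_of_ne_of_ne hzx hzy, hHay, hz2]
      · intro c hcx hcy hcz
        simp [Equiv.swap_apply_of_ne_of_ne hcx hcy, Equiv.swap_apply_of_ne_of_ne hcx hcz,
          Equiv.swap_apply_of_ne_of_ne hcy hcz]
      · simp [Equiv.swap_apply_of_ne_of_ne hxy hzx.symm]
      · simp [Equiv.swap_apply_of_ne_of_ne hzx hzy, hbz, hHbx]
      · simp [Equiv.swap_apply_of_ne_of_ne hzx hzy, hbz, hHbx]
      · intro c hcx hcy hcz
        simp [Equiv.swap_apply_of_ne_of_ne hcx hcy, Equiv.swap_apply_of_ne_of_ne hcy hcz]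
    have hm := h.map2 hH
    have s1 : SameMarg (tr a b e x y (Equiv.swap x z) (Equiv.swap y z) H)
        (colSwap {a, b, e} y z (tr a b e x y (Equiv.swap x z) (Equiv.swap y z) H)) := by
      rw [e1]; exact sameMarg_trans (sameMarg_symm hK.2) hm.2
    have b1 := hA _ y z s1
    rw [e1] at b1
    have b2 := h.bound2 f LB hB hH
    have b3 := abs_sub_le (f H) (f (tr a b e x y (Equiv.swap x y) (Equiv.refl C) H))
      (f (tr a b e x y (Equiv.swap x z) (Equiv.swap y z) H))
    rw [abs_sub_comm] at b1
    linarith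
  · -- third row has a one in column `z`: compare with `F1`
    have e1 : colSwap {a, b, e} x z (tr a b e x y (Equiv.swap x z) (Equiv.swap y z) H)
        = tr a b e x y (Equiv.refl C) (Equiv.swap x y) H := by
      refine h.colSwap_tr x z _ _ _ _ H (fun c => by simp) (forall_col3 x y z ?_ ?_ ?_ ?_)
        (forall_col3 x y z ?_ ?_ ?_ ?_)
      · simp
      · simp [Equiv.swap_apply_of_ne_of_ne hxy.symm hzy.symm, hz1, hHex]
      · simp [Equiv.swap_apply_of_ne_of_ne hxy hzx.symm,
          Equiv.swap_apply_of_ne_of_ne hzx hzy, hHex, hz1]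
      · intro c hcx hcy hcz
        simp [Equiv.swap_apply_of_ne_of_ne hcx hcy, Equiv.swap_apply_of_ne_of_ne hcx hcz,
          Equiv.swap_apply_of_ne_of_ne hcy hcz]
      · simp [Equiv.swap_apply_of_ne_of_ne hzx hzy, hbz, hHby]
      · simp [Equiv.swap_apply_of_ne_of_ne hxy.symm hzy.symm]
      · simp [Equiv.swap_apply_of_ne_of_ne hzx hzy, hbz, hHby]
      · intro c hcx hcy hcz
        simp [Equiv.swap_apply_of_ne_of_ne hcx hcy, Equiv.swap_apply_of_ne_of_ne hcx hcz]
    have hm := h.map1 hH
    have s1 : SameMarg (tr a b e x y (Equiv.swap x z) (Equiv.swap y z) H)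
        (colSwap {a, b, e} x z (tr a b e x y (Equiv.swap x z) (Equiv.swap y z) H)) := by
      rw [e1]; exact sameMarg_trans (sameMarg_symm hK.2) hm.2
    have b1 := hA _ x z s1
    rw [e1] at b1
    have b2 := h.bound1 f LB hB hH
    have b3 := abs_sub_le (f H) (f (tr a b e x y (Equiv.refl C) (Equiv.swap x y) H))
      (f (tr a b e x y (Equiv.swap x z) (Equiv.swap y z) H))
    rw [abs_sub_comm] at b1
    linarith

/-- The columns with two ones in the rows `a, e`: one more for `G` than for a matrix of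
the second fibre (namely the column `x`). -/
theorem Cfg.card_two (h : Cfg a b e G x y) {K : R → C → Bool}
    (hK : RelP a e (colSwap {a, b} x y G) K) :
    (univ.filter (fun z => bn (G a z) + bn (G e z) = 2)).card
      = (univ.filter (fun z => bn (K a z) + bn (K e z) = 2)).card + 1 := by
  obtain ⟨h1, h2, -, hpair, -, -⟩ := h.factsF' hK
  have hxy := h.hxy
  have hx : x ∉ univ.filter (fun z => bn (K a z) + bn (K e z) = 2) := by
    simp only [mem_filter, mem_univ, true_and]
    omega
  rw [← Finset.card_insert_of_notMem hx]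
  congr 1
  ext z
  simp only [mem_filter, mem_univ, true_and, mem_insert]
  by_cases hzx : z = x
  · rw [hzx, h.hax, h.hex]
    simp
  · by_cases hzy : z = y
    · rw [hzy, h.hay, h.hey]
      simp only [bn_false]
      constructor
      · intro h0; omega
      · rintro (h0 | h0)
        · exact absurd h0.symm hxy
        · omega
    · rw [hpair z hzx hzy]
      simp [hzx]

/-- Part 1 of the comparison. -/
theorem Cfg.part1 (h : Cfg a b e G x y) (hLA : 0 ≤ LA)
    (hB : ∀ A A', (RelB a b e A A' ∨ RelB b e a A A' ∨ RelB e a b A A') → |f A - f A'| ≤ LB) :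
    |((univ.filter (fun H => RelP a e G H)).card : ℝ)
          * ∑ K ∈ univ.filter (fun K => RelP a e (colSwap {a, b} x y G) K ∧
              K a x = true ∧ K a y = false), f K
        - ((univ.filter (fun K => RelP a e (colSwap {a, b} x y G) K ∧
              K a x = true ∧ K a y = false)).card : ℝ)
          * ∑ H ∈ univ.filter (fun H => RelP a e G H), f H|
      ≤ ((univ.filter (fun H => RelP a e G H)).card : ℝ)
        * ((univ.filter (fun K => RelP a e (colSwap {a, b} x y G) K ∧
              K a x = true ∧ K a y = false)).card : ℝ) * (LA + LB) := by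
  have hinv : ∀ H : R → C → Bool, tr a b e x y (Equiv.refl C) (Equiv.swap x y)
      (tr a b e x y (Equiv.refl C) (Equiv.swap x y) H) = H := fun H =>
    tr_tr _ _ (fun c => rfl) (fun c => Equiv.swap_apply_self x y c) H
  refine cross_bij _ _ f (LA + LB) (tr a b e x y (Equiv.refl C) (Equiv.swap x y)) ?_ ?_ ?_ ?_
  · intro H hH
    simp only [mem_filter, mem_univ, true_and] at hH ⊢
    obtain ⟨hHax, hHay, -, -, -, -, -, -⟩ := h.factsF hH
    exact ⟨h.map1 hH, by simpa [tr_a] using hHax, by simpa [tr_a] using hHay⟩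
  · intro H _ H' _ heq
    have := congrArg (tr a b e x y (Equiv.refl C) (Equiv.swap x y)) heq
    rwa [hinv, hinv] at this
  · intro K hK
    simp only [mem_filter, mem_univ, true_and] at hK
    refine ⟨tr a b e x y (Equiv.refl C) (Equiv.swap x y) K, ?_, hinv K⟩
    simp only [mem_filter, mem_univ, true_and]
    exact h.inv1 hK.1 hK.2.1 hK.2.2
  · intro H hH
    simp only [mem_filter, mem_univ, true_and] at hH
    have := h.bound1 f LB hB hH
    linarith

/-- Part 2 of the comparison. -/
theorem Cfg.part2 (h : Cfg a b e G x y) (hLA : 0 ≤ LA)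
    (hB : ∀ A A', (RelB a b e A A' ∨ RelB b e a A A' ∨ RelB e a b A A') → |f A - f A'| ≤ LB) :
    |((univ.filter (fun H => RelP a e G H)).card : ℝ)
          * ∑ K ∈ univ.filter (fun K => RelP a e (colSwap {a, b} x y G) K ∧
              K a x = false ∧ K a y = true), f K
        - ((univ.filter (fun K => RelP a e (colSwap {a, b} x y G) K ∧
              K a x = false ∧ K a y = true)).card : ℝ)
          * ∑ H ∈ univ.filter (fun H => RelP a e G H), f H|
      ≤ ((univ.filter (fun H => RelP a e G H)).card : ℝ)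
        * ((univ.filter (fun K => RelP a e (colSwap {a, b} x y G) K ∧
              K a x = false ∧ K a y = true)).card : ℝ) * (LA + LB) := by
  have hinv : ∀ H : R → C → Bool, tr a b e x y (Equiv.swap x y) (Equiv.refl C)
      (tr a b e x y (Equiv.swap x y) (Equiv.refl C) H) = H := fun H =>
    tr_tr _ _ (fun c => Equiv.swap_apply_self x y c) (fun c => rfl) H
  refine cross_bij _ _ f (LA + LB) (tr a b e x y (Equiv.swap x y) (Equiv.refl C)) ?_ ?_ ?_ ?_
  · intro H hH
    simp only [mem_filter, mem_univ, true_and] at hH ⊢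
    obtain ⟨hHax, hHay, -, -, -, -, -, -⟩ := h.factsF hH
    exact ⟨h.map2 hH, by simpa [tr_a] using hHay, by simpa [tr_a] using hHax⟩
  · intro H _ H' _ heq
    have := congrArg (tr a b e x y (Equiv.swap x y) (Equiv.refl C)) heq
    rwa [hinv, hinv] at this
  · intro K hK
    simp only [mem_filter, mem_univ, true_and] at hK
    refine ⟨tr a b e x y (Equiv.swap x y) (Equiv.refl C) K, ?_, hinv K⟩
    simp only [mem_filter, mem_univ, true_and]
    exact h.inv2 hK.1 hK.2.1 hK.2.2
  · intro H hH
    simp only [mem_filter, mem_univ, true_and] at hH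
    have := h.bound2 f LB hB hH
    linarith

/-- Part 3 of the comparison. -/
theorem Cfg.part3 (h : Cfg a b e G x y)
    (hA : ∀ A x y, SameMarg A (colSwap {a, b, e} x y A) →
      |f A - f (colSwap {a, b, e} x y A)| ≤ LA)
    (hB : ∀ A A', (RelB a b e A A' ∨ RelB b e a A A' ∨ RelB e a b A A') → |f A - f A'| ≤ LB) :
    |((univ.filter (fun H => RelP a e G H)).card : ℝ)
          * ∑ K ∈ univ.filter (fun K => RelP a e (colSwap {a, b} x y G) K ∧
              K a x = true ∧ K a y = true), f K
        - ((univ.filter (fun K => RelP a e (colSwap {a, b} x y G) K ∧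
              K a x = true ∧ K a y = true)).card : ℝ)
          * ∑ H ∈ univ.filter (fun H => RelP a e G H), f H|
      ≤ ((univ.filter (fun H => RelP a e G H)).card : ℝ)
        * ((univ.filter (fun K => RelP a e (colSwap {a, b} x y G) K ∧
              K a x = true ∧ K a y = true)).card : ℝ) * (LA + LB) := by
  have hxy := h.hxy
  have hinv : ∀ (z : C) (H : R → C → Bool), tr a b e x y (Equiv.swap y z) (Equiv.swap x z)
      (tr a b e x y (Equiv.swap y z) (Equiv.swap x z) H) = H := fun z H =>
    tr_tr _ _ (fun c => Equiv.swap_apply_self y z c) (fun c => Equiv.swap_apply_self x z c) H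
  refine cross_biregular _ _ f (LA + LB) (fun H z => H a z = true ∧ H e z = false)
    (fun K z => K e z = true ∧ K a z = false)
    (univ.filter (fun z => G a z = true ∧ G e z = false)).card
    (univ.filter (fun z => colSwap {a, b} x y G e z = true ∧
      colSwap {a, b} x y G a z = false)).card
    (fun H z => tr a b e x y (Equiv.swap y z) (Equiv.swap x z) H) ?_ ?_ ?_ ?_ ?_ ?_ ?_
  · -- the count for `F`
    intro H hH
    simp only [mem_filter, mem_univ, true_and] at hH
    obtain ⟨-, h2, h3⟩ := (relP_iff a e h.hae G H).1 hH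
    exact card_adm_eq a e G H (h2 a) h3
  · -- the count for `F3`
    intro K hK
    simp only [mem_filter, mem_univ, true_and] at hK
    obtain ⟨-, h2, h3⟩ := (relP_iff a e h.hae _ K).1 hK.1
    exact card_adm_eq e a _ K (h2 e) (fun c => by rw [add_comm, h3 c, add_comm])
  · -- positivity
    rintro ⟨K, hK⟩
    simp only [mem_filter, mem_univ, true_and] at hK
    obtain ⟨hK, hKx, hKy⟩ := hK
    obtain ⟨h1, h2, -, -, hrow, -⟩ := h.factsF' hK
    rw [hKx] at h1
    rw [hKy] at h2
    simp only [bn_true] at h1 h2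
    have hKex : K e x = false := (bn_eq_zero_iff _).1 (by omega)
    have hKey : K e y = false := (bn_eq_zero_iff _).1 (by omega)
    have c1 := card_adm_add a e K
    have c2 := card_adm_add a e G
    have c3 := h.card_two hK
    have c4 := hrow a
    have c5 : 2 ≤ (univ.filter (fun z => K a z = true ∧ K e z = false)).card := by
      rw [← Finset.card_pair hxy]
      apply Finset.card_le_card
      intro z hz
      simp only [mem_insert, mem_singleton] at hz
      simp only [mem_filter, mem_univ, true_and]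
      rcases hz with rfl | rfl
      · exact ⟨hKx, hKex⟩
      · exact ⟨hKy, hKey⟩
    omega
  · -- the map
    intro H hH z hz
    simp only [mem_filter, mem_univ, true_and] at hH ⊢
    obtain ⟨hHax, hHay, hHex, hHey, -, -, -, -⟩ := h.factsF hH
    have hzx : z ≠ x := by rintro rfl; rw [hHex] at hz; exact Bool.noConfusion hz.2
    have hzy : z ≠ y := by rintro rfl; rw [hHay] at hz; exact Bool.noConfusion hz.1
    refine ⟨⟨h.map3 hH hz.1 hz.2, ?_, ?_⟩, ?_, ?_⟩
    · rw [tr_a, Equiv.swap_apply_of_ne_of_ne hxy hzx.symm]; exact hHax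
    · rw [tr_a, Equiv.swap_apply_left]; exact hz.1
    · rw [tr_e h.hae, Equiv.swap_apply_right]; exact hHex
    · rw [tr_a, Equiv.swap_apply_right]; exact hHay
  · -- injectivity
    intro H _ H' _ z _ _ heq
    have := congrArg (tr a b e x y (Equiv.swap y z) (Equiv.swap x z)) heq
    rwa [hinv, hinv] at this
  · -- surjectivity
    intro K hK z hz
    simp only [mem_filter, mem_univ, true_and] at hK
    obtain ⟨hK, hKx, hKy⟩ := hK
    obtain ⟨h1, h2, -, -, -, -⟩ := h.factsF' hK
    rw [hKx] at h1
    rw [hKy] at h2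
    simp only [bn_true] at h1 h2
    have hKex : K e x = false := (bn_eq_zero_iff _).1 (by omega)
    refine ⟨tr a b e x y (Equiv.swap y z) (Equiv.swap x z) K, ?_, ⟨?_, ?_⟩, hinv z K⟩
    · simp only [mem_filter, mem_univ, true_and]
      exact h.inv3 hK hKx hKy hz.1 hz.2
    · rw [tr_a, Equiv.swap_apply_right]; exact hKy
    · rw [tr_e h.hae, Equiv.swap_apply_right]; exact hKex
  · -- the bound
    intro H hH z hz
    simp only [mem_filter, mem_univ, true_and] at hH
    exact h.bound3 f LA LB hA hB hH hz.1 hz.2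

/-- Part 4 of the comparison. -/
theorem Cfg.part4 (h : Cfg a b e G x y)
    (hA : ∀ A x y, SameMarg A (colSwap {a, b, e} x y A) →
      |f A - f (colSwap {a, b, e} x y A)| ≤ LA)
    (hB : ∀ A A', (RelB a b e A A' ∨ RelB b e a A A' ∨ RelB e a b A A') → |f A - f A'| ≤ LB) :
    |((univ.filter (fun H => RelP a e G H)).card : ℝ)
          * ∑ K ∈ univ.filter (fun K => RelP a e (colSwap {a, b} x y G) K ∧
              K a x = false ∧ K a y = false), f K
        - ((univ.filter (fun K => RelP a e (colSwap {a, b} x y G) K ∧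
              K a x = false ∧ K a y = false)).card : ℝ)
          * ∑ H ∈ univ.filter (fun H => RelP a e G H), f H|
      ≤ ((univ.filter (fun H => RelP a e G H)).card : ℝ)
        * ((univ.filter (fun K => RelP a e (colSwap {a, b} x y G) K ∧
              K a x = false ∧ K a y = false)).card : ℝ) * (LA + LB) := by
  have hxy := h.hxy
  have hinv : ∀ (z : C) (H : R → C → Bool), tr a b e x y (Equiv.swap x z) (Equiv.swap y z)
      (tr a b e x y (Equiv.swap x z) (Equiv.swap y z) H) = H := fun z H =>
    tr_tr _ _ (fun c => Equiv.swap_apply_self x z c) (fun c => Equiv.swap_apply_self y z c) H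
  refine cross_biregular _ _ f (LA + LB) (fun H z => H e z = true ∧ H a z = false)
    (fun K z => K a z = true ∧ K e z = false)
    (univ.filter (fun z => G e z = true ∧ G a z = false)).card
    (univ.filter (fun z => colSwap {a, b} x y G a z = true ∧
      colSwap {a, b} x y G e z = false)).card
    (fun H z => tr a b e x y (Equiv.swap x z) (Equiv.swap y z) H) ?_ ?_ ?_ ?_ ?_ ?_ ?_
  · -- the count for `F`
    intro H hH
    simp only [mem_filter, mem_univ, true_and] at hH
    obtain ⟨-, h2, h3⟩ := (relP_iff a e h.hae G H).1 hH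
    exact card_adm_eq e a G H (h2 e) (fun c => by rw [add_comm, h3 c, add_comm])
  · -- the count for `F4`
    intro K hK
    simp only [mem_filter, mem_univ, true_and] at hK
    obtain ⟨-, h2, h3⟩ := (relP_iff a e h.hae _ K).1 hK.1
    exact card_adm_eq a e _ K (h2 a) h3
  · -- positivity
    rintro ⟨K, hK⟩
    simp only [mem_filter, mem_univ, true_and] at hK
    obtain ⟨hK, hKx, hKy⟩ := hK
    obtain ⟨h1, h2, -, -, hrow, -⟩ := h.factsF' hK
    rw [hKx] at h1
    rw [hKy] at h2
    simp only [bn_false] at h1 h2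
    have hKex : K e x = true := (bn_eq_one_iff _).1 (by omega)
    have hKey : K e y = true := (bn_eq_one_iff _).1 (by omega)
    have c1 := card_adm_add e a K
    have c2 := card_adm_add e a G
    have c3 := h.card_two hK
    have c4 := hrow e
    have e1 : (univ.filter (fun z => bn (G e z) + bn (G a z) = 2))
        = (univ.filter (fun z => bn (G a z) + bn (G e z) = 2)) := by
      ext z; simp only [mem_filter, mem_univ, true_and]; rw [add_comm]
    have e2 : (univ.filter (fun z => bn (K e z) + bn (K a z) = 2))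
        = (univ.filter (fun z => bn (K a z) + bn (K e z) = 2)) := by
      ext z; simp only [mem_filter, mem_univ, true_and]; rw [add_comm]
    rw [e1] at c2
    rw [e2] at c1
    have c5 : 2 ≤ (univ.filter (fun z => K e z = true ∧ K a z = false)).card := by
      rw [← Finset.card_pair hxy]
      apply Finset.card_le_card
      intro z hz
      simp only [mem_insert, mem_singleton] at hz
      simp only [mem_filter, mem_univ, true_and]
      rcases hz with rfl | rfl
      · exact ⟨hKex, hKx⟩
      · exact ⟨hKey, hKy⟩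
    omega
  · -- the map
    intro H hH z hz
    simp only [mem_filter, mem_univ, true_and] at hH ⊢
    obtain ⟨hHax, hHay, hHex, hHey, -, -, -, -⟩ := h.factsF hH
    have hzx : z ≠ x := by rintro rfl; rw [hHax] at hz; exact Bool.noConfusion hz.2
    have hzy : z ≠ y := by rintro rfl; rw [hHey] at hz; exact Bool.noConfusion hz.1
    refine ⟨⟨h.map4 hH hz.1 hz.2, ?_, ?_⟩, ?_, ?_⟩
    · rw [tr_a, Equiv.swap_apply_left]; exact hz.2
    · rw [tr_a, Equiv.swap_apply_of_ne_of_ne hxy.symm hzy.symm]; exact hHay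
    · rw [tr_a, Equiv.swap_apply_right]; exact hHax
    · rw [tr_e h.hae, Equiv.swap_apply_right]; exact hHey
  · -- injectivity
    intro H _ H' _ z _ _ heq
    have := congrArg (tr a b e x y (Equiv.swap x z) (Equiv.swap y z)) heq
    rwa [hinv, hinv] at this
  · -- surjectivity
    intro K hK z hz
    simp only [mem_filter, mem_univ, true_and] at hK
    obtain ⟨hK, hKx, hKy⟩ := hK
    obtain ⟨h1, h2, -, -, -, -⟩ := h.factsF' hK
    rw [hKx] at h1
    rw [hKy] at h2
    simp only [bn_false] at h1 h2
    have hKey : K e y = true := (bn_eq_one_iff _).1 (by omega)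
    refine ⟨tr a b e x y (Equiv.swap x z) (Equiv.swap y z) K, ?_, ⟨?_, ?_⟩, hinv z K⟩
    · simp only [mem_filter, mem_univ, true_and]
      exact h.inv4 hK hKx hKy hz.1 hz.2
    · rw [tr_e h.hae, Equiv.swap_apply_right]; exact hKey
    · rw [tr_a, Equiv.swap_apply_right]; exact hKx
  · -- the bound
    intro H hH z hz
    simp only [mem_filter, mem_univ, true_and] at hH
    exact h.bound4 f LA LB hA hB hH hz.1 hz.2

end parts

/-- Three-row lemma, claim B, core case. -/
theorem g3_caseI {R C : Type*} [Fintype R] [DecidableEq R] [Fintype C] [DecidableEq C]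
    (a b e : R) (hab : a ≠ b) (hae : a ≠ e) (hbe : b ≠ e)
    (f : (R → C → Bool) → ℝ) (LA LB : ℝ)
    (hA : ∀ A x y, SameMarg A (colSwap {a, b, e} x y A) →
      |f A - f (colSwap {a, b, e} x y A)| ≤ LA)
    (hB : ∀ A A', (RelB a b e A A' ∨ RelB b e a A A' ∨ RelB e a b A A') → |f A - f A'| ≤ LB)
    (G : R → C → Bool) (x y : C)
    (hax : G a x = true) (hay : G a y = false) (hbx : G b x = false) (hby : G b y = true)
    (hex : G e x = true) (hey : G e y = false) :
    |avgRel (RelP a e) f G - avgRel (RelP a e) f (colSwap {a, b} x y G)| ≤ LA + LB := by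
  have h : Cfg a b e G x y := ⟨hab, hae, hbe, hax, hay, hbx, hby, hex, hey⟩
  have hLA : 0 ≤ LA := by
    have := hA G x x (by rw [colSwap_self]; exact sameMarg_refl G)
    rw [colSwap_self, sub_self, abs_zero] at this
    exact this
  unfold avgRel
  have hsplit : univ.filter (fun K => RelP a e (colSwap {a, b} x y G) K)
      = ((univ.filter (fun K => RelP a e (colSwap {a, b} x y G) K ∧
              K a x = true ∧ K a y = false)
          ∪ univ.filter (fun K => RelP a e (colSwap {a, b} x y G) K ∧
              K a x = false ∧ K a y = true))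
          ∪ univ.filter (fun K => RelP a e (colSwap {a, b} x y G) K ∧
              K a x = true ∧ K a y = true))
          ∪ univ.filter (fun K => RelP a e (colSwap {a, b} x y G) K ∧
              K a x = false ∧ K a y = false) := by
    ext K
    simp only [mem_filter, mem_univ, true_and, mem_union]
    cases K a x <;> cases K a y <;> simp
  refine avg_sub_le_of_cross _ _ f (LA + LB) ⟨G, by simp [relP_refl]⟩
    ⟨colSwap {a, b} x y G, by simp [relP_refl]⟩ ?_
  rw [hsplit]
  refine cross_union _ _ _ f _ ?_ (cross_union _ _ _ f _ ?_ (cross_union _ _ _ f _ ?_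
    (h.part1 f LA LB hLA hB) (h.part2 f LA LB hLA hB)) (h.part3 f LA LB hA hB))
    (h.part4 f LA LB hA hB)
  · rw [Finset.disjoint_left]
    intro K hK hK'
    simp only [mem_filter, mem_univ, true_and, mem_union] at hK hK'
    rcases hK with (⟨-, h1, h2⟩ | ⟨-, h1, h2⟩) | ⟨-, h1, h2⟩
    · rw [hK'.2.1] at h1; exact Bool.noConfusion h1
    · rw [hK'.2.2] at h2; exact Bool.noConfusion h2
    · rw [hK'.2.1] at h1; exact Bool.noConfusion h1
  · rw [Finset.disjoint_left]
    intro K hK hK'
    simp only [mem_filter, mem_univ, true_and, mem_union] at hK hK'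
    rcases hK with ⟨-, h1, h2⟩ | ⟨-, h1, h2⟩
    · rw [hK'.2.2] at h2; exact Bool.noConfusion h2
    · rw [hK'.2.1] at h1; exact Bool.noConfusion h1
  · rw [Finset.disjoint_left]
    intro K hK hK'
    simp only [mem_filter, mem_univ, true_and] at hK hK'
    have h1 := hK.2.1
    rw [hK'.2.1] at h1
    exact Bool.noConfusion h1

end Vale.Agent.H75
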